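import Crest.Agent.R106.Wave.Sph

/-!
Row 106.  Spherical means `M`, the wave propagator `W g = t M_t g`, the retarded potential `S`,
regularity, commutation with derivatives, Darboux, Kirchhoff representation.
-/

set_option autoImplicit false
set_option linter.unusedSectionVars false

noncomputable section

namespace Crest.Agent.R106.Wave

open MeasureTheory Metric Set Filter Topology
open scoped ContDiff InnerProductSpace
open Crest.AnalysisR.VecCalc3

variable {V : Type} [NormedAddCommGroup V] [NormedSpace ℝ V] [CompleteSpace V]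

section Prim

variable {P : Type} [NormedAddCommGroup P] [NormedSpace ℝ P] [FiniteDimensional ℝ P]

theorem prim_eq (g : ℝ → V) (b : ℝ) :
    ∫ r in (0 : ℝ)..b, g r = ∫ θ in Icc (0 : ℝ) 1, b • g (θ * b) := by
  have := intervalIntegral.smul_integral_comp_mul_right (a := 0) (b := 1) g b
  rw [zero_mul, one_mul] at this
  rw [← this, intervalIntegral.integral_of_le zero_le_one, integral_Icc_eq_integral_Ioc,
    integral_smul]

theorem ae_Icc01 : ∀ᵐ θ ∂(volume.restrict (Icc (0 : ℝ) 1)), θ ∈ Icc (0 : ℝ) 1 :=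
  ae_restrict_mem measurableSet_Icc

theorem contDiff_prim {n : ℕ∞} {G : P × ℝ → V} (hG : ContDiff ℝ n G) :
    ContDiff ℝ n fun z : P × ℝ => ∫ r in (0 : ℝ)..z.2, G (z.1, r) := by
  simp only [prim_eq]
  exact contDiff_int (F := fun y : (P × ℝ) × ℝ => y.1.2 • G (y.1.1, y.2 * y.1.2)) isCompact_Icc
    ae_Icc01 (ContDiff.smul (by fun_prop) (hG.comp (by fun_prop)))

/-- Leibniz rule -/
theorem D_prim {G : P × ℝ → V} (hG : ContDiff ℝ 1 G) (e : P × ℝ) (z : P × ℝ) :
    D e (fun z : P × ℝ => ∫ r in (0 : ℝ)..z.2, G (z.1, r)) z =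
      e.2 • G z + ∫ r in (0 : ℝ)..z.2, D (e.1, 0) G (z.1, r) := by
  obtain ⟨p, b⟩ := z
  obtain ⟨e, c⟩ := e
  have hΦ := ((contDiff_prim (n := 1) hG).differentiable (by simp) (p, b)).hasFDerivAt
  have hs : ((e, c) : P × ℝ) = c • ((0 : P), (1 : ℝ)) + (e, 0) := by simp
  rw [hs, D_add_left, D_smul_left]
  simp only [smul_eq_mul, mul_one, smul_zero, zero_add, add_zero, Prod.mk_add_mk, Prod.smul_mk]
  congr 1
  · congr 1
    have h1 := hΦ.comp_hasDerivAt (f := fun s : ℝ => (p, s)) b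
      ((hasDerivAt_const b p).prodMk (hasDerivAt_id b))
    have hc : Continuous fun r : ℝ => G (p, r) := hG.continuous.comp (by fun_prop)
    exact h1.unique (hc.integral_hasStrictDerivAt 0 b).hasDerivAt
  · have h1 := hΦ.comp p (hasFDerivAt_prodMk_left (𝕜 := ℝ) p b)
    have hF : ContDiff ℝ 1 fun y : P × ℝ => b • G (y.1, y.2 * b) :=
      ContDiff.smul (by fun_prop) (hG.comp (by fun_prop))
    have h2 := fderiv_int_apply (μ := volume.restrict (Icc (0 : ℝ) 1)) (p := p) isCompact_Icc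
      ae_Icc01 (fun u _ => hF.contDiffAt) e
    have h3 : (fun q : P => ∫ u in Icc (0 : ℝ) 1, b • G (q, u * b)) =
        (fun z : P × ℝ => ∫ r in (0 : ℝ)..z.2, G (z.1, r)) ∘ fun q => (q, b) := by
      funext q
      simp only [Function.comp_apply, prim_eq]
    simp only at h2
    rw [h3, h1.fderiv] at h2
    rw [prim_eq]
    refine Eq.trans h2 (integral_congr_ae (ae_of_all _ fun θ => ?_))
    have hφ : HasFDerivAt (fun y : P × ℝ => (y.1, y.2 * b))
        ((ContinuousLinearMap.fst ℝ P ℝ).prod (b • ContinuousLinearMap.snd ℝ P ℝ)) (p, θ) :=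
      hasFDerivAt_fst.prodMk (hasFDerivAt_snd.mul_const b)
    have h4 := ((hG.differentiable (by simp) (p, θ * b)).hasFDerivAt.comp (p, θ) hφ).const_smul b
    have h5 := congrArg (fun A : P × ℝ →L[ℝ] V => A (e, 0)) h4.fderiv
    refine Eq.trans h5 ?_
    simp [D]

end Prim

/-- spherical mean -/
def M (g : R3 → V) (p : ℝ × R3) : V := ∫ w, g (p.2 + p.1 • w) ∂sg

/-- wave propagator -/
def W (g : R3 → V) (p : ℝ × R3) : V := p.1 • M g p

/-- mean over the section of the backward light cone at distance `r` -/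
def N (F : ℝ × R3 → V) (z : (ℝ × R3) × ℝ) : V := ∫ w, F (z.1.1 - z.2, z.1.2 + z.2 • w) ∂sg

/-- retarded potential -/
def S (F : ℝ × R3 → V) (p : ℝ × R3) : V := ∫ r in (0 : ℝ)..p.1, r • N F (p, r)

/-- time direction -/
abbrev et : ℝ × R3 := (1, 0)

/-- space directions -/
abbrev ex (i : Fin 3) : ℝ × R3 := (0, e3 i)

/-- spatial Laplacian of a space-time function -/
def LapX (u : ℝ × R3 → V) : ℝ × R3 → V := fun p => ∑ i, D (ex i) (D (ex i) u) p

/-- d'Alembertian -/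
def box (u : ℝ × R3 → V) : ℝ × R3 → V := fun p => D et (D et u) p - LapX u p

/-- time slice -/
def sl (u : ℝ × R3 → V) (t : ℝ) : R3 → V := fun x => u (t, x)

theorem contDiff_M {n : ℕ∞} {g : R3 → V} (hg : ContDiff ℝ n g) : ContDiff ℝ n (M g) :=
  contDiff_int (F := fun y : (ℝ × R3) × R3 => g (y.1.2 + y.1.1 • y.2)) cpt_sph sg_ae_mem
    (hg.comp (by fun_prop))

theorem contDiff_W {n : ℕ∞} {g : R3 → V} (hg : ContDiff ℝ n g) : ContDiff ℝ n (W g) :=
  contDiff_fst.smul (contDiff_M hg)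

theorem contDiff_N {n : ℕ∞} {F : ℝ × R3 → V} (hF : ContDiff ℝ n F) : ContDiff ℝ n (N F) :=
  contDiff_int (F := fun y : ((ℝ × R3) × ℝ) × R3 => F (y.1.1.1 - y.1.2, y.1.1.2 + y.1.2 • y.2))
    cpt_sph sg_ae_mem (hF.comp (by fun_prop))

theorem contDiff_S {n : ℕ∞} {F : ℝ × R3 → V} (hF : ContDiff ℝ n F) : ContDiff ℝ n (S F) :=
  (contDiff_prim (G := fun z : (ℝ × R3) × ℝ => z.2 • N F z)
    (contDiff_snd.smul (contDiff_N hF))).comp (f := fun p : ℝ × R3 => (p, p.1)) (by fun_prop)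

theorem contDiff_sl {n : WithTop ℕ∞} {u : ℝ × R3 → V} (hu : ContDiff ℝ n u) (t : ℝ) :
    ContDiff ℝ n (sl u t) := hu.comp (by fun_prop)

theorem D_sl {u : ℝ × R3 → V} {t : ℝ} {x : R3} (hu : DifferentiableAt ℝ u (t, x)) (a : R3) :
    D a (sl u t) x = D (0, a) u (t, x) :=
  congrArg (fun A : R3 →L[ℝ] V => A a) (hu.hasFDerivAt.comp x (hasFDerivAt_prodMk_right t x)).fderiv

theorem D_sl_eq {u : ℝ × R3 → V} (hu : ContDiff ℝ 1 u) (t : ℝ) (a : R3) :
    D a (sl u t) = sl (D (0, a) u) t :=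
  funext fun _ => D_sl (hu.differentiable (by simp) _) a

theorem hasDerivAt_time {u : ℝ × R3 → V} {t : ℝ} {x : R3} (hu : DifferentiableAt ℝ u (t, x)) :
    HasDerivAt (fun s => u (s, x)) (D et u (t, x)) t :=
  hu.hasFDerivAt.comp_hasDerivAt (f := fun s : ℝ => (s, x)) t
    ((hasDerivAt_id t).prodMk (hasDerivAt_const t x))

theorem Lap_sl {u : ℝ × R3 → V} (hu : ContDiff ℝ 2 u) (t : ℝ) : Lap (sl u t) = sl (LapX u) t := by
  funext x
  simp only [Lap, sl, LapX]
  refine Finset.sum_congr rfl fun i _ => ?_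
  rw [D_sl_eq (hu.of_le (by norm_num)), D_sl_eq (contDiff_D hu (by norm_num) _)]
  rfl

theorem D_M {g : R3 → V} (hg : ContDiff ℝ 1 g) (e p : ℝ × R3) :
    D e (M g) p = ∫ w, D (e.2 + e.1 • w) g (p.2 + p.1 • w) ∂sg := by
  have hφ : ContDiff ℝ 1 fun y : (ℝ × R3) × R3 => y.1.2 + y.1.1 • y.2 := by fun_prop
  have h := fderiv_int_apply (μ := sg) (p := p) cpt_sph sg_ae_mem
    (F := fun y : (ℝ × R3) × R3 => g (y.1.2 + y.1.1 • y.2))
    (fun u _ => (hg.comp hφ).contDiffAt) e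
  refine Eq.trans h (integral_congr_ae (ae_of_all _ fun w => ?_))
  refine (D_comp (g := g) (hg.differentiable (by simp) _) (hφ.differentiable (by simp) _) _).trans ?_
  congr 1
  have h0 : HasFDerivAt (fun y : (ℝ × R3) × R3 => y) (ContinuousLinearMap.id ℝ _) (p, w) :=
    hasFDerivAt_id _
  have h1 := h0.fst.snd.fun_add (h0.fst.fst.fun_smul h0.snd)
  rw [D, h1.fderiv]
  simp

theorem D_N {F : ℝ × R3 → V} (hF : ContDiff ℝ 1 F) (e z : (ℝ × R3) × ℝ) :
    D e (N F) z =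
      ∫ w, D (e.1.1 - e.2, e.1.2 + e.2 • w) F (z.1.1 - z.2, z.1.2 + z.2 • w) ∂sg := by
  have hφ : ContDiff ℝ 1 fun y : ((ℝ × R3) × ℝ) × R3 =>
      (y.1.1.1 - y.1.2, y.1.1.2 + y.1.2 • y.2) := by fun_prop
  have h := fderiv_int_apply (μ := sg) (p := z) cpt_sph sg_ae_mem
    (F := fun y : ((ℝ × R3) × ℝ) × R3 => F (y.1.1.1 - y.1.2, y.1.1.2 + y.1.2 • y.2))
    (fun u _ => (hF.comp hφ).contDiffAt) e
  refine Eq.trans h (integral_congr_ae (ae_of_all _ fun w => ?_))
  refine (D_comp (g := F) (hF.differentiable (by simp) _) (hφ.differentiable (by simp) _) _).trans ?_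
  congr 1
  have h0 : HasFDerivAt (fun y : ((ℝ × R3) × ℝ) × R3 => y) (ContinuousLinearMap.id ℝ _) (z, w) :=
    hasFDerivAt_id _
  have h1 := (h0.fst.fst.fst.fun_sub h0.fst.snd).prodMk
    (h0.fst.fst.snd.fun_add (h0.fst.snd.fun_smul h0.snd))
  rw [D, h1.fderiv]
  simp

theorem D_N_left {F : ℝ × R3 → V} (hF : ContDiff ℝ 1 F) (e : ℝ × R3) (z : (ℝ × R3) × ℝ) :
    D (e, 0) (N F) z = N (D e F) z := by
  rw [D_N hF]; simp [N]

theorem Dx_M {g : R3 → V} (hg : ContDiff ℝ 1 g) (a : R3) : D (0, a) (M g) = M (D a g) := by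
  funext p; rw [D_M hg]; simp [M]

theorem D_W {g : R3 → V} (hg : ContDiff ℝ 1 g) (e p : ℝ × R3) :
    D e (W g) p = p.1 • D e (M g) p + e.1 • M g p := by
  unfold W
  rw [D_smul (c := fun p : ℝ × R3 => p.1) (by fun_prop)
    ((contDiff_M (n := 1) hg).differentiable (by simp) p)]
  simp [D, fderiv_fst]

theorem Dx_W {g : R3 → V} (hg : ContDiff ℝ 1 g) (a : R3) : D (0, a) (W g) = W (D a g) := by
  funext p; rw [D_W hg, Dx_M hg]; simp [W]

theorem M_zero (g : R3 → V) (x : R3) : M g (0, x) = g x := by simp [M]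

theorem W_zero (g : R3 → V) (x : R3) : W g (0, x) = 0 := by simp [W]

theorem S_zero (F : ℝ × R3 → V) (x : R3) : S F (0, x) = 0 := by simp [S]

theorem N_zero (F : ℝ × R3 → V) (p : ℝ × R3) : N F (p, 0) = F p := by simp [N]

theorem N_end (F : ℝ × R3 → V) (p : ℝ × R3) : N F (p, p.1) = M (sl F 0) p := by simp [N, M, sl]

theorem Dt_W_zero {g : R3 → V} (hg : ContDiff ℝ 1 g) (x : R3) : D et (W g) (0, x) = g x := by
  rw [D_W hg]; simp [M_zero]

/-- explicit form of `∂ₜ W g` -/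
theorem Dt_W {g : R3 → V} (hg : ContDiff ℝ 1 g) (p : ℝ × R3) :
    D et (W g) p = ∫ w, (g (p.2 + p.1 • w) + p.1 • D w g (p.2 + p.1 • w)) ∂sg := by
  have hc := hg.continuous
  have hc' := hg.continuous_fderiv (by simp)
  have i1 : Integrable (fun w : R3 => g (p.2 + p.1 • w)) sg := integrable_sg (by fun_prop)
  have i2 : Integrable (fun w : R3 => p.1 • D w g (p.2 + p.1 • w)) sg :=
    integrable_sg (by unfold D; fun_prop)
  rw [D_W hg, D_M hg, integral_add i1 i2, integral_smul, add_comm]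
  simp [M]

/-- derivative of the retarded potential -/
theorem D_S {F : ℝ × R3 → V} (hF : ContDiff ℝ 1 F) (e p : ℝ × R3) :
    D e (S F) p = e.1 • W (sl F 0) p + S (D e F) p := by
  have hN := contDiff_N (n := 1) hF
  have hG : ContDiff ℝ 1 fun z : (ℝ × R3) × ℝ => z.2 • N F z := contDiff_snd.smul hN
  have h1 := D_comp (g := fun z : (ℝ × R3) × ℝ => ∫ r in (0 : ℝ)..z.2, r • N F (z.1, r))
    (φ := fun p : ℝ × R3 => (p, p.1)) (y := p)
    ((contDiff_prim (n := 1) hG).differentiable (by simp) _) (by fun_prop) e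
  have h2 : D e (fun p : ℝ × R3 => (p, p.1)) p = (e, e.1) := by
    have h0 : HasFDerivAt (fun y : ℝ × R3 => y) (ContinuousLinearMap.id ℝ _) p := hasFDerivAt_id _
    have := h0.prodMk h0.fst
    rw [D, this.fderiv]; simp
  rw [h2, D_prim hG] at h1
  refine Eq.trans h1 ?_
  simp only [N_end, W, S]
  congr 1
  refine intervalIntegral.integral_congr fun r _ => ?_
  rw [D_smul (c := fun z : (ℝ × R3) × ℝ => z.2) (by fun_prop) (hN.differentiable (by simp) _),
    D_N_left hF]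
  simp [D, fderiv_snd]

theorem Dx_S {F : ℝ × R3 → V} (hF : ContDiff ℝ 1 F) (a : R3) :
    D (0, a) (S F) = S (D (0, a) F) := by
  funext p; rw [D_S hF]; simp

theorem Dt_S {F : ℝ × R3 → V} (hF : ContDiff ℝ 1 F) :
    D et (S F) = fun p => W (sl F 0) p + S (D et F) p := by
  funext p; rw [D_S hF]; simp

end Crest.Agent.R106.Wave
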