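import Crest.Agent.R106.Wave.WS

/-!
Row 106.  Linearity and bounds of `M, W, N, S`; Darboux for `W`; Kirchhoff representation;
`box (S F) = F`.
-/

set_option autoImplicit false
set_option linter.unusedSectionVars false

noncomputable section

namespace Crest.Agent.R106.Wave

open MeasureTheory Metric Set Filter Topology
open scoped ContDiff InnerProductSpace
open Crest.AnalysisR.VecCalc3

variable {V : Type} [NormedAddCommGroup V] [NormedSpace ℝ V] [CompleteSpace V]
  {V' : Type} [NormedAddCommGroup V'] [NormedSpace ℝ V'] [CompleteSpace V']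

theorem hasDerivAt_int {X : Type} [NormedAddCommGroup X] [NormedSpace ℝ X] [MeasurableSpace X]
    [BorelSpace X] [SecondCountableTopology X] {μ : Measure X} [IsFiniteMeasure μ] {K : Set X}
    (hK : IsCompact K) (hμ : ∀ᵐ u ∂μ, u ∈ K) {F : ℝ × X → V} {F' : X → V} {r : ℝ}
    (hF : ∀ u ∈ K, ContDiffAt ℝ 1 F (r, u))
    (hF' : ∀ u ∈ K, HasDerivAt (fun s => F (s, u)) (F' u) r) :
    HasDerivAt (fun s => ∫ u, F (s, u) ∂μ) (∫ u, F' u ∂μ) r := by
  have h1 := hasDerivAt_D (hasFDerivAt_int hK hμ hF).differentiableAt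
  rw [D, fderiv_int_apply hK hμ hF] at h1
  refine h1.congr_deriv (integral_congr_ae (hμ.mono fun u hu => ?_))
  have h2 := ((hF u hu).differentiableAt (by simp)).hasFDerivAt.comp_hasDerivAt
    (f := fun s : ℝ => (s, u)) r ((hasDerivAt_id r).prodMk (hasDerivAt_const r u))
  exact h2.unique (hF' u hu)

theorem continuous_M {g : R3 → V} (hg : Continuous g) : Continuous (M g) :=
  (contDiff_M (n := 0) (contDiff_zero.2 hg)).continuous

theorem continuous_W {g : R3 → V} (hg : Continuous g) : Continuous (W g) :=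
  (contDiff_W (n := 0) (contDiff_zero.2 hg)).continuous

theorem continuous_N {F : ℝ × R3 → V} (hF : Continuous F) : Continuous (N F) :=
  (contDiff_N (n := 0) (contDiff_zero.2 hF)).continuous

theorem continuous_S {F : ℝ × R3 → V} (hF : Continuous F) : Continuous (S F) :=
  (contDiff_S (n := 0) (contDiff_zero.2 hF)).continuous

theorem intg_M {g : R3 → V} (hg : Continuous g) (p : ℝ × R3) :
    Integrable (fun w : R3 => g (p.2 + p.1 • w)) sg := integrable_sg (by fun_prop)

theorem intg_N {F : ℝ × R3 → V} (hF : Continuous F) (z : (ℝ × R3) × ℝ) :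
    Integrable (fun w : R3 => F (z.1.1 - z.2, z.1.2 + z.2 • w)) sg := integrable_sg (by fun_prop)

theorem intg_S {F : ℝ × R3 → V} (hF : Continuous F) (p : ℝ × R3) (a b : ℝ) :
    IntervalIntegrable (fun r : ℝ => r • N F (p, r)) volume a b := by
  have := continuous_N hF
  exact Continuous.intervalIntegrable (by fun_prop) _ _

theorem M_add {f g : R3 → V} (hf : Continuous f) (hg : Continuous g) (p : ℝ × R3) :
    M (fun x => f x + g x) p = M f p + M g p := integral_add (intg_M hf p) (intg_M hg p)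

theorem M_sub {f g : R3 → V} (hf : Continuous f) (hg : Continuous g) (p : ℝ × R3) :
    M (fun x => f x - g x) p = M f p - M g p := integral_sub (intg_M hf p) (intg_M hg p)

theorem M_clm (L : V →L[ℝ] V') {g : R3 → V} (hg : Continuous g) (p : ℝ × R3) :
    M (fun x => L (g x)) p = L (M g p) := L.integral_comp_comm (intg_M hg p)

theorem M_sum {ι : Type} (s : Finset ι) {g : ι → R3 → V} (hg : ∀ i ∈ s, Continuous (g i))
    (p : ℝ × R3) : M (fun x => ∑ i ∈ s, g i x) p = ∑ i ∈ s, M (g i) p :=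
  integral_finsetSum s fun i hi => intg_M (hg i hi) p

theorem W_add {f g : R3 → V} (hf : Continuous f) (hg : Continuous g) (p : ℝ × R3) :
    W (fun x => f x + g x) p = W f p + W g p := by simp only [W, M_add hf hg, smul_add]

theorem W_sub {f g : R3 → V} (hf : Continuous f) (hg : Continuous g) (p : ℝ × R3) :
    W (fun x => f x - g x) p = W f p - W g p := by simp only [W, M_sub hf hg, smul_sub]

theorem W_clm (L : V →L[ℝ] V') {g : R3 → V} (hg : Continuous g) (p : ℝ × R3) :
    W (fun x => L (g x)) p = L (W g p) := by simp only [W, M_clm L hg, map_smul]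

theorem W_sum {ι : Type} (s : Finset ι) {g : ι → R3 → V} (hg : ∀ i ∈ s, Continuous (g i))
    (p : ℝ × R3) : W (fun x => ∑ i ∈ s, g i x) p = ∑ i ∈ s, W (g i) p := by
  simp only [W, M_sum s hg, Finset.smul_sum]

theorem W_fun_zero (p : ℝ × R3) : W (fun _ => (0 : V)) p = 0 := by simp [W, M]

theorem N_add {F G : ℝ × R3 → V} (hF : Continuous F) (hG : Continuous G) (z : (ℝ × R3) × ℝ) :
    N (fun x => F x + G x) z = N F z + N G z := integral_add (intg_N hF z) (intg_N hG z)

theorem N_sub {F G : ℝ × R3 → V} (hF : Continuous F) (hG : Continuous G) (z : (ℝ × R3) × ℝ) :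
    N (fun x => F x - G x) z = N F z - N G z := integral_sub (intg_N hF z) (intg_N hG z)

theorem N_clm (L : V →L[ℝ] V') {F : ℝ × R3 → V} (hF : Continuous F) (z : (ℝ × R3) × ℝ) :
    N (fun x => L (F x)) z = L (N F z) := L.integral_comp_comm (intg_N hF z)

theorem N_sum {ι : Type} (s : Finset ι) {F : ι → ℝ × R3 → V} (hF : ∀ i ∈ s, Continuous (F i))
    (z : (ℝ × R3) × ℝ) : N (fun x => ∑ i ∈ s, F i x) z = ∑ i ∈ s, N (F i) z :=
  integral_finsetSum s fun i hi => intg_N (hF i hi) z

theorem S_add {F G : ℝ × R3 → V} (hF : Continuous F) (hG : Continuous G) (p : ℝ × R3) :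
    S (fun x => F x + G x) p = S F p + S G p := by
  simp only [S, N_add hF hG, smul_add]
  exact intervalIntegral.integral_add (intg_S hF p _ _) (intg_S hG p _ _)

theorem S_sub {F G : ℝ × R3 → V} (hF : Continuous F) (hG : Continuous G) (p : ℝ × R3) :
    S (fun x => F x - G x) p = S F p - S G p := by
  simp only [S, N_sub hF hG, smul_sub]
  exact intervalIntegral.integral_sub (intg_S hF p _ _) (intg_S hG p _ _)

theorem S_clm (L : V →L[ℝ] V') {F : ℝ × R3 → V} (hF : Continuous F) (p : ℝ × R3) :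
    S (fun x => L (F x)) p = L (S F p) := by
  simp only [S, N_clm L hF, ← map_smul]
  exact L.intervalIntegral_comp_comm (intg_S hF p _ _)

theorem S_sum {ι : Type} (s : Finset ι) {F : ι → ℝ × R3 → V} (hF : ∀ i ∈ s, Continuous (F i))
    (p : ℝ × R3) : S (fun x => ∑ i ∈ s, F i x) p = ∑ i ∈ s, S (F i) p := by
  simp only [S, N_sum s hF, Finset.smul_sum]
  exact intervalIntegral.integral_finsetSum fun i hi => intg_S (hF i hi) p _ _

theorem S_neg (F : ℝ × R3 → V) (p : ℝ × R3) : S (fun x => -F x) p = -S F p := by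
  simp only [S, N, integral_neg, smul_neg, intervalIntegral.integral_neg]

theorem W_neg (g : R3 → V) (p : ℝ × R3) : W (fun x => -g x) p = -W g p := by
  simp only [W, M, integral_neg, smul_neg]

theorem sub_mem_uIcc {t r : ℝ} (hr : r ∈ uIcc 0 t) : t - r ∈ uIcc 0 t := by
  rw [mem_uIcc] at hr ⊢
  rcases hr with h | h
  · left; constructor <;> linarith [h.1, h.2]
  · right; constructor <;> linarith [h.1, h.2]

/-- `S F (t, x)` only depends on the values of `F` at times between `0` and `t` -/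
theorem S_congr {F G : ℝ × R3 → V} {p : ℝ × R3} (h : ∀ τ ∈ uIcc 0 p.1, ∀ y, F (τ, y) = G (τ, y)) :
    S F p = S G p := by
  refine intervalIntegral.integral_congr fun r hr => ?_
  have : p.1 - r ∈ uIcc 0 p.1 := sub_mem_uIcc hr
  simp only [N, h _ this]

theorem S_fun_zero (p : ℝ × R3) : S (fun _ => (0 : V)) p = 0 := by simp [S, N]

theorem norm_M_le {g : R3 → V} {C : ℝ} {p : ℝ × R3} (h : ∀ w : R3, ‖w‖ = 1 → ‖g (p.2 + p.1 • w)‖ ≤ C) :
    ‖M g p‖ ≤ C := by
  have := norm_integral_le_of_norm_le_const (μ := sg) (f := fun w : R3 => g (p.2 + p.1 • w))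
    (sg_ae_norm.mono h)
  simpa [M] using this

theorem norm_N_le {F : ℝ × R3 → V} {C : ℝ} {z : (ℝ × R3) × ℝ}
    (h : ∀ w : R3, ‖w‖ = 1 → ‖F (z.1.1 - z.2, z.1.2 + z.2 • w)‖ ≤ C) : ‖N F z‖ ≤ C := by
  have := norm_integral_le_of_norm_le_const (μ := sg)
    (f := fun w : R3 => F (z.1.1 - z.2, z.1.2 + z.2 • w)) (sg_ae_norm.mono h)
  simpa [N] using this

theorem norm_W_le {g : R3 → V} {C : ℝ} (h : ∀ y, ‖g y‖ ≤ C) (p : ℝ × R3) :
    ‖W g p‖ ≤ |p.1| * C := by
  rw [W, norm_smul, Real.norm_eq_abs]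
  exact mul_le_mul_of_nonneg_left (norm_M_le fun w _ => h _) (abs_nonneg _)

theorem norm_Dt_W_le {g : R3 → V} (hg : ContDiff ℝ 1 g) {C C' : ℝ} (h : ∀ y, ‖g y‖ ≤ C)
    (h' : ∀ y, ‖fderiv ℝ g y‖ ≤ C') (p : ℝ × R3) : ‖D et (W g) p‖ ≤ C + |p.1| * C' := by
  rw [Dt_W hg]
  have := norm_integral_le_of_norm_le_const (μ := sg) (C := C + |p.1| * C')
    (f := fun w : R3 => g (p.2 + p.1 • w) + p.1 • D w g (p.2 + p.1 • w))
    (sg_ae_norm.mono fun w hw => by
      refine (norm_add_le _ _).trans (add_le_add (h _) ?_)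
      rw [norm_smul, Real.norm_eq_abs]
      refine mul_le_mul_of_nonneg_left ?_ (abs_nonneg _)
      refine ((fderiv ℝ g _).le_opNorm w).trans ?_
      rw [hw, mul_one]; exact h' _)
  simpa using this

theorem norm_S_le {F : ℝ × R3 → V} {C : ℝ} {p : ℝ × R3}
    (h : ∀ τ ∈ uIcc 0 p.1, ∀ y, ‖F (τ, y)‖ ≤ C) : ‖S F p‖ ≤ |p.1| * |p.1| * C := by
  have hC : 0 ≤ C := (norm_nonneg _).trans (h 0 left_mem_uIcc 0)
  have := intervalIntegral.norm_integral_le_of_norm_le_const (a := 0) (b := p.1)
    (f := fun r : ℝ => r • N F (p, r)) (C := |p.1| * C) fun r hr => by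
      have hr' := uIoc_subset_uIcc hr
      have h1 : p.1 - r ∈ uIcc 0 p.1 := sub_mem_uIcc hr'
      have h2 : |r| ≤ |p.1| := by simpa using abs_sub_left_of_mem_uIcc hr'
      rw [norm_smul, Real.norm_eq_abs]
      exact mul_le_mul h2 (norm_N_le fun w _ => h _ h1 _) (norm_nonneg _) (abs_nonneg _)
  rw [sub_zero] at this
  calc ‖S F p‖ ≤ |p.1| * C * |p.1| := this
    _ = _ := by ring

/-- the cone functional -/
def Psi (u : ℝ × R3 → V) (p : ℝ × R3) (r : ℝ) : V :=
  ∫ w, (u (p.1 - r, p.2 + r • w) + r • D (1, w) u (p.1 - r, p.2 + r • w)) ∂sg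

theorem continuous_LapX {u : ℝ × R3 → V} (hu : ContDiff ℝ 2 u) : Continuous (LapX u) :=
  continuous_finsetSum _ fun i _ =>
    (contDiff_D (m := 0) (contDiff_D (m := 1) hu (by norm_num) _) (by norm_num) _).continuous

theorem continuous_box {u : ℝ × R3 → V} (hu : ContDiff ℝ 2 u) : Continuous (box u) := by
  have h : ∀ a b, Continuous (D a (D b u)) := fun a b =>
    (contDiff_D (m := 0) (contDiff_D (m := 1) hu (by norm_num) b) (by norm_num) a).continuous
  exact (h _ _).sub (continuous_finsetSum _ fun i _ => h _ _)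

theorem hasDerivAt_Psi {u : ℝ × R3 → V} (hu : ContDiff ℝ 2 u) (p : ℝ × R3) (r : ℝ) :
    HasDerivAt (Psi u p) (-(r • N (box u) (p, r))) r := by
  have hu1 : ContDiff ℝ 1 u := hu.of_le (by norm_num)
  have hd : ContDiff ℝ 1 (fderiv ℝ u) := hu.fderiv_right (by norm_num)
  have hφ : ContDiff ℝ 1 fun y : ℝ × R3 => (p.1 - y.1, p.2 + y.1 • y.2) := by fun_prop
  have hF : ContDiff ℝ 1 fun y : ℝ × R3 => u (p.1 - y.1, p.2 + y.1 • y.2) +
      y.1 • D (1, y.2) u (p.1 - y.1, p.2 + y.1 • y.2) :=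
    (hu1.comp hφ).add (contDiff_fst.smul ((hd.comp hφ).clm_apply (by fun_prop)))
  have hc : ∀ w : R3, HasDerivAt (fun s : ℝ => (p.1 - s, p.2 + s • w)) ((-1 : ℝ), w) r := fun w => by
    have := ((hasDerivAt_id r).const_sub p.1).prodMk
      (((hasDerivAt_id r).smul_const w).const_add p.2)
    simpa using this
  have h1 := hasDerivAt_int (μ := sg) cpt_sph sg_ae_mem (r := r) (fun w _ => hF.contDiffAt)
    (F' := fun w => ((2 : ℝ) • D w (sl u (p.1 - r)) (p.2 + r • w) +
      r • D w (D w (sl u (p.1 - r))) (p.2 + r • w)) - r • D et (D et u) (p.1 - r, p.2 + r • w))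
    (fun w _ => by
      have a1 := (hu1.differentiable (by simp) _).hasFDerivAt.comp_hasDerivAt r (hc w)
      have a2 := ((contDiff_D (m := 1) hu (by norm_num) ((1 : ℝ), w)).differentiable
        (by simp) _).hasFDerivAt.comp_hasDerivAt r (hc w)
      refine (a1.add ((hasDerivAt_id r).smul a2)).congr_deriv ?_
      rw [D_sl_eq hu1, D_sl_eq (contDiff_D hu (by norm_num) _)]
      change D (-1, w) u _ + (r • D (-1, w) (D (1, w) u) _ + (1 : ℝ) • D (1, w) u _) =
        (2 : ℝ) • D (0, w) u _ + r • D (0, w) (D (0, w) u) _ - _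
      have e1 : (((-1 : ℝ), w) : ℝ × R3) = (0, w) - et := by simp
      have e2 : (((1 : ℝ), w) : ℝ × R3) = (0, w) + et := by simp
      have hs := D_comm (x := (p.1 - r, p.2 + r • w)) hu.contDiffAt ((0 : ℝ), w) et
      simp only [D_D_eq hu.contDiffAt] at hs ⊢
      rw [e1, e2]
      simp only [D, map_sub, map_add, sub_apply, hs]
      module)
  refine h1.congr_deriv ?_
  have hDD : ∀ a b, Continuous (D a (D b u)) := fun a b =>
    (contDiff_D (m := 0) (contDiff_D (m := 1) hu (by norm_num) b) (by norm_num) a).continuous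
  have hs2 := contDiff_sl hu (p.1 - r)
  have i1 : Integrable (fun w : R3 => (2 : ℝ) • D w (sl u (p.1 - r)) (p.2 + r • w) +
      r • D w (D w (sl u (p.1 - r))) (p.2 + r • w)) sg := by
    simp only [D_D_eq hs2.contDiffAt]
    have c1 := hs2.continuous_fderiv (by norm_num)
    have c2 := (hs2.fderiv_right (m := 1) (by norm_num)).continuous_fderiv (by norm_num)
    exact integrable_sg (by unfold D; fun_prop)
  have i2 : Integrable (fun w : R3 => r • D et (D et u) (p.1 - r, p.2 + r • w)) sg :=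
    (intg_N (hDD et et) (p, r)).smul r
  rw [integral_sub i1 i2, darboux fun w _ => hs2.contDiffAt, integral_smul, Lap_sl hu]
  unfold box
  rw [N_sub (hDD _ _) (continuous_LapX hu), smul_sub, neg_sub]
  rfl

theorem Psi_zero (u : ℝ × R3 → V) (p : ℝ × R3) : Psi u p 0 = u p := by simp [Psi]

theorem Psi_end {u : ℝ × R3 → V} (hu : ContDiff ℝ 1 u) (p : ℝ × R3) :
    Psi u p p.1 = D et (W (sl u 0)) p + W (sl (D et u) 0) p := by
  have hs := contDiff_sl hu 0
  have c0 := hs.continuous
  have c1 := hs.continuous_fderiv (by norm_num)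
  have c2 : Continuous (sl (D et u) 0) :=
    (contDiff_sl (contDiff_D (m := 0) hu (by norm_num) et) 0).continuous
  have i1 : Integrable (fun w : R3 => sl u 0 (p.2 + p.1 • w) +
      p.1 • D w (sl u 0) (p.2 + p.1 • w)) sg := integrable_sg (by unfold D; fun_prop)
  have i2 : Integrable (fun w : R3 => p.1 • sl (D et u) 0 (p.2 + p.1 • w)) sg :=
    (intg_M c2 p).smul p.1
  rw [Dt_W hs, W, M, ← integral_smul, ← integral_add i1 i2, Psi]
  refine integral_congr_ae (ae_of_all _ fun w => ?_)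
  have e2 : (((1 : ℝ), w) : ℝ × R3) = (0, w) + et := by simp
  simp only [D_sl_eq hu, sub_self, sl, e2, D_add_left, smul_add, add_assoc]

/-- Kirchhoff representation of an arbitrary `C²` function -/
theorem kirchhoff {u : ℝ × R3 → V} (hu : ContDiff ℝ 2 u) (p : ℝ × R3) :
    u p = D et (W (sl u 0)) p + W (sl (D et u) 0) p + S (box u) p := by
  have h := intervalIntegral.integral_eq_sub_of_hasDerivAt (a := 0) (b := p.1)
    (fun r _ => hasDerivAt_Psi hu p r) (intg_S (continuous_box hu) p _ _).neg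
  rw [intervalIntegral.integral_neg, Psi_zero, Psi_end (hu.of_le (by norm_num))] at h
  rw [S, eq_comm, ← sub_eq_zero]
  have := sub_eq_zero.2 h
  rw [← neg_eq_zero, ← this]
  abel

theorem continuous_Lap {g : R3 → V} (hg : ContDiff ℝ 2 g) : Continuous (Lap g) :=
  continuous_finsetSum _ fun i _ =>
    (contDiff_D (m := 0) (contDiff_D (m := 1) hg (by norm_num) _) (by norm_num) _).continuous

theorem D_snd {g : R3 → V} (hg : ContDiff ℝ 1 g) (e : ℝ × R3) :
    D e (fun q : ℝ × R3 => g q.2) = fun q => D e.2 g q.2 := by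
  funext q
  rw [D_comp (g := g) (φ := fun q : ℝ × R3 => q.2) (hg.differentiable (by simp) _) (by fun_prop)]
  simp [D, fderiv_snd]

/-- Darboux: `∂ₜ² W g = W (Δ g)` -/
theorem Dtt_W {g : R3 → V} (hg : ContDiff ℝ 2 g) : D et (D et (W g)) = W (Lap g) := by
  funext p
  have hg1 : ContDiff ℝ 1 g := hg.of_le (by norm_num)
  have hu : ContDiff ℝ 2 fun q : ℝ × R3 => g q.2 := hg.comp contDiff_snd
  have h1 := hasDerivAt_Psi hu p p.1
  have h2 : Psi (fun q : ℝ × R3 => g q.2) p = fun s => D et (W g) (s, p.2) := by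
    funext s
    simp only [Psi, Dt_W hg1, D_snd hg1]
  have h3 := hasDerivAt_time (t := p.1) (x := p.2)
    ((contDiff_D (m := 1) (contDiff_W (n := 2) hg) (by norm_num) et).differentiable (by simp) _)
  rw [h2] at h1
  rw [h3.unique h1, N_end, W, ← smul_neg]
  congr 1
  have h4 : sl (box fun q : ℝ × R3 => g q.2) 0 = fun x => -Lap g x := by
    funext x
    have hD : ∀ a : R3, ContDiff ℝ 1 (D a g) := fun a => contDiff_D hg (by norm_num) a
    simp only [sl, box, LapX, D_snd hg1, D_snd (hD _), Lap]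
    simp [D]
  rw [h4]
  simp only [M, integral_neg, neg_neg]

theorem LapX_W {g : R3 → V} (hg : ContDiff ℝ 2 g) : LapX (W g) = W (Lap g) := by
  funext p
  have hD : ∀ a : R3, ContDiff ℝ 1 (D a g) := fun a => contDiff_D hg (by norm_num) a
  simp only [LapX, Dx_W (hg.of_le (by norm_num) : ContDiff ℝ 1 g), Dx_W (hD _)]
  exact (W_sum _ (fun i _ => (contDiff_D (m := 0) (hD _) (by norm_num) _).continuous) p).symm

theorem box_W {g : R3 → V} (hg : ContDiff ℝ 2 g) (p : ℝ × R3) : box (W g) p = 0 := by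
  rw [box, Dtt_W hg, LapX_W hg, sub_self]

theorem LapX_S {F : ℝ × R3 → V} (hF : ContDiff ℝ 2 F) : LapX (S F) = S (LapX F) := by
  funext p
  have hD : ∀ a, ContDiff ℝ 1 (D a F) := fun a => contDiff_D hF (by norm_num) a
  simp only [LapX, Dx_S (hF.of_le (by norm_num) : ContDiff ℝ 1 F), Dx_S (hD _)]
  exact (S_sum _ (fun i _ => (contDiff_D (m := 0) (hD _) (by norm_num) _).continuous) p).symm

/-- the retarded potential solves the wave equation -/
theorem box_S {F : ℝ × R3 → V} (hF : ContDiff ℝ 2 F) : box (S F) = F := by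
  funext p
  have hF1 : ContDiff ℝ 1 F := hF.of_le (by norm_num)
  have hD : ∀ a, ContDiff ℝ 1 (D a F) := fun a => contDiff_D hF (by norm_num) a
  have hDD : ∀ a b, Continuous (D a (D b F)) := fun a b =>
    (contDiff_D (m := 0) (hD b) (by norm_num) a).continuous
  rw [box, LapX_S hF, Dt_S hF1,
    D_add ((contDiff_W (n := 1) (contDiff_sl hF1 0)).differentiable (by simp) _)
      ((contDiff_S (n := 1) (hD _)).differentiable (by simp) _), Dt_S (hD _), kirchhoff hF p]
  unfold box
  rw [S_sub (hDD _ _) (continuous_LapX hF)]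
  simp only
  abel

end Crest.Agent.R106.Wave
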