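import Crest.Agent.R106.Wave.Kirch
import Crest.Agent.R106.HR.Defs

/-!
Row 106.  Maxwell's equations `HR.MxL`: the solver (potentials `W K₀ - S (j, 0)`, `S ρ`) and the retarded
representation of every smooth solution.
-/

set_option autoImplicit false
set_option linter.unusedSectionVars false

noncomputable section

namespace Crest.Agent.R106.Wave

open MeasureTheory Metric Set Filter Topology
open scoped ContDiff InnerProductSpace
open Crest.AnalysisR.VecCalc3
open HR (K6 MxL)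

/-- `c ↦ (c e_i, 0)` -/
def gr (i : Fin 3) : ℝ →L[ℝ] K6 :=
  (ContinuousLinearMap.inl ℝ R3 R3).comp (ContinuousLinearMap.toSpanSingleton ℝ (e3 i))

theorem gr_apply (i : Fin 3) (c : ℝ) : gr i c = (c • e3 i, 0) := rfl

/-- `(E, B) ↦ E i` -/
def p1 (i : Fin 3) : K6 →L[ℝ] ℝ := (EuclideanSpace.proj i).comp (ContinuousLinearMap.fst ℝ R3 R3)
/-- `(E, B) ↦ B i` -/
def p2 (i : Fin 3) : K6 →L[ℝ] ℝ := (EuclideanSpace.proj i).comp (ContinuousLinearMap.snd ℝ R3 R3)

theorem p1_apply (i : Fin 3) (k : K6) : p1 i k = k.1 i := rfl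
theorem p2_apply (i : Fin 3) (k : K6) : p2 i k = k.2 i := rfl

/-- `(E, B) ↦ (curl B, -curl E)` -/
def RotX (U : ℝ × R3 → K6) (p : ℝ × R3) : K6 := ∑ i, HR.rot i (D (ex i) U p)
/-- `φ ↦ (∇ φ, 0)` -/
def GrX (φ : ℝ × R3 → ℝ) (p : ℝ × R3) : K6 := ∑ i, gr i (D (ex i) φ p)
/-- `(curl B₀, -curl E₀)` -/
def Rot0 (K₀ : R3 → K6) (x : R3) : K6 := ∑ i, HR.rot i (D (e3 i) K₀ x)

section op

variable {X V V' : Type} [NormedAddCommGroup X] [NormedSpace ℝ X] [NormedAddCommGroup V]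
  [NormedSpace ℝ V] [NormedAddCommGroup V'] [NormedSpace ℝ V']

theorem contDiff_op {m n : WithTop ℕ∞} (L : Fin 3 → V →L[ℝ] V') (a : Fin 3 → X) {u : X → V}
    (hu : ContDiff ℝ n u) (h : m + 1 ≤ n) : ContDiff ℝ m fun p => ∑ i, L i (D (a i) u p) :=
  ContDiff.sum fun i _ => (L i).contDiff.comp (contDiff_D hu h _)

theorem D_op (L : Fin 3 → V →L[ℝ] V') (a : Fin 3 → X) {u : X → V} {q : X}
    (hu : ContDiffAt ℝ 2 u q) (e : X) :
    D e (fun p => ∑ i, L i (D (a i) u p)) q = ∑ i, L i (D e (D (a i) u) q) := by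
  have hd : ∀ i, DifferentiableAt ℝ (D (a i) u) q := fun i =>
    (contDiffAt_D (m := 1) hu (by norm_num) _).differentiableAt (by simp)
  rw [D_sum (g := fun i p => L i (D (a i) u p)) _ fun i _ => (L i).differentiableAt.comp q (hd i)]
  exact Finset.sum_congr rfl fun i _ => D_clm (L i) (hd i) e

theorem D_congr {u v : X → V} {q : X} (h : u =ᶠ[𝓝 q] v) (e : X) : D e u q = D e v q := by
  unfold D; rw [h.fderiv_eq]

end op

theorem contDiff_RotX {m n : WithTop ℕ∞} {U : ℝ × R3 → K6} (hU : ContDiff ℝ n U) (h : m + 1 ≤ n) :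
    ContDiff ℝ m (RotX U) := contDiff_op HR.rot ex hU h

theorem contDiff_GrX {m n : WithTop ℕ∞} {φ : ℝ × R3 → ℝ} (hφ : ContDiff ℝ n φ) (h : m + 1 ≤ n) :
    ContDiff ℝ m (GrX φ) := contDiff_op gr ex hφ h

theorem contDiff_Rot0 {m n : WithTop ℕ∞} {U : R3 → K6} (hU : ContDiff ℝ n U) (h : m + 1 ≤ n) :
    ContDiff ℝ m (Rot0 U) := contDiff_op HR.rot e3 hU h

/-- linear algebra: `rot rot = Δ - grad div` -/
theorem rot_rot (B : Fin 3 → Fin 3 → K6) (hB : ∀ i k, B i k = B k i) :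
    ∑ i, HR.rot i (∑ k, HR.rot k (B i k)) = ∑ i, B i i -
      (∑ i, (∑ k, (B i k).1 k) • e3 i, ∑ i, (∑ k, (B i k).2 k) • e3 i) := by
  have h01 := hB 1 0; have h02 := hB 2 0; have h12 := hB 2 1
  ext l <;> fin_cases l <;>
    simp [Fin.sum_univ_three, HR.rot_apply, cross3, HR.ee, h01, h02, h12] <;> ring

theorem rot_gr (C : Fin 3 → Fin 3 → ℝ) (hC : ∀ i k, C i k = C k i) :
    ∑ i, HR.rot i (∑ k, gr k (C i k)) = 0 := by
  have h01 := hC 1 0; have h02 := hC 2 0; have h12 := hC 2 1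
  ext l <;> fin_cases l <;>
    simp [Fin.sum_univ_three, HR.rot_apply, gr_apply, cross3, HR.ee, h01, h02, h12]

theorem div_rot (B : Fin 3 → Fin 3 → K6) (hB : ∀ i k, B i k = B k i) :
    ∑ i, (∑ k, HR.rot k (B i k)).1 i = 0 ∧ ∑ i, (∑ k, HR.rot k (B i k)).2 i = 0 := by
  have h01 := hB 1 0; have h02 := hB 2 0; have h12 := hB 2 1
  constructor <;> simp [Fin.sum_univ_three, HR.rot_apply, cross3, HR.ee, h01, h02, h12] <;> ring

theorem div_gr (C : Fin 3 → Fin 3 → ℝ) :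
    ∑ i, (∑ k, gr k (C i k)).1 i = ∑ i, C i i ∧ ∑ i, (∑ k, gr k (C i k)).2 i = 0 := by
  constructor <;> simp [Fin.sum_univ_three, gr_apply]

/-- the field of a pair of potentials -/
def fld (U : ℝ × R3 → K6) (φ : ℝ × R3 → ℝ) (p : ℝ × R3) : K6 := D et U p + RotX U p - GrX φ p

theorem mxL_fld {U : ℝ × R3 → K6} {φ : ℝ × R3 → ℝ} (hU : ContDiff ℝ 2 U) (hφ : ContDiff ℝ 2 φ)
    {q : ℝ × R3} {ρ : ℝ} {j : R3} (h1 : box U q = -(j, 0)) (h2 : box φ q = ρ)
    (h3 : ∀ᶠ p in 𝓝 q, ∑ i, (D (ex i) U p).1 i = D et φ p)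
    (h4 : ∀ᶠ p in 𝓝 q, ∑ i, (D (ex i) U p).2 i = 0) : MxL (fderiv ℝ (fld U φ) q) ρ j := by
  have hD : ∀ a, fderiv ℝ (fld U φ) q a = D a (D et U) q + ∑ i, HR.rot i (D a (D (ex i) U) q) -
      ∑ i, gr i (D a (D (ex i) φ) q) := by
    intro a
    have d1 := (contDiff_D (m := 1) hU (by norm_num) et).differentiable (by simp) q
    have d2 := (contDiff_RotX (m := 1) hU (by norm_num)).differentiable (by simp) q
    have d3 := (contDiff_GrX (m := 1) hφ (by norm_num)).differentiable (by simp) q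
    have := D_sub (f := fun p => D et U p + RotX U p) (d1.add d2) d3 a
    rw [D_add d1 d2] at this
    refine Eq.trans this ?_
    rw [← D_op HR.rot ex hU.contDiffAt, ← D_op gr ex hφ.contDiffAt]
    rfl
  have sU := fun a b => D_comm (x := q) hU.contDiffAt a b
  have sφ := fun a b => D_comm (x := q) hφ.contDiffAt a b
  have k3 : ∀ a, ∑ i, (D a (D (ex i) U) q).1 i = D a (D et φ) q := fun a =>
    (D_op p1 ex hU.contDiffAt a).symm.trans (D_congr h3 a)
  have k4 : ∀ a, ∑ i, (D a (D (ex i) U) q).2 i = 0 := fun a => by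
    refine (D_op p2 ex hU.contDiffAt a).symm.trans ((D_congr (v := fun _ => 0) h4 a).trans ?_)
    simp [D]
  have hee : ∀ i, ((0 : ℝ), HR.ee i) = ex i := fun _ => rfl
  refine ⟨?_, ?_, ?_⟩
  · simp only [hee, hD, map_sub, map_add, Finset.sum_sub_distrib, Finset.sum_add_distrib]
    rw [rot_rot _ fun i k => sU _ _, rot_gr _ fun i k => sφ _ _]
    simp only [k3, k4]
    rw [box, LapX, sub_eq_iff_eq_add] at h1
    rw [h1]
    have e1 : ∑ i, gr i (D et (D (ex i) φ) q) =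
        (∑ i, D (ex i) (D et φ) q • e3 i, ∑ i, (0 : ℝ) • e3 i) := by
      simp only [sφ et, gr_apply]
      ext l <;> simp [Prod.fst_sum, Prod.snd_sum]
    rw [e1]
    simp only [sU et]
    abel
  · simp only [hee, hD, Prod.fst_sub, Prod.fst_add, PiLp.sub_apply, PiLp.add_apply,
      Finset.sum_sub_distrib, Finset.sum_add_distrib]
    rw [(div_rot _ fun i k => sU _ _).1, (div_gr _).1, ← h2, box, LapX, ← k3 et]
    simp only [sU et, add_zero]
  · simp only [hee, hD, Prod.snd_sub, Prod.snd_add, PiLp.sub_apply, PiLp.add_apply,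
      Finset.sum_sub_distrib, Finset.sum_add_distrib]
    rw [(div_rot _ fun i k => sU _ _).2, (div_gr _).2]
    have := k4 et
    simp only [sU et] at this
    rw [this]; simp

theorem D_D_sub {V : Type} [NormedAddCommGroup V] [NormedSpace ℝ V] {u v : ℝ × R3 → V}
    (hu : ContDiff ℝ 2 u) (hv : ContDiff ℝ 2 v) (a b q : ℝ × R3) :
    D a (D b fun p => u p - v p) q = D a (D b u) q - D a (D b v) q := by
  have : (D b fun p => u p - v p) = fun p => D b u p - D b v p := funext fun p =>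
    D_sub (hu.differentiable (by simp) p) (hv.differentiable (by simp) p) b
  rw [this, D_sub ((contDiff_D (m := 1) hu (by norm_num) b).differentiable (by simp) q)
    ((contDiff_D (m := 1) hv (by norm_num) b).differentiable (by simp) q)]

theorem box_sub {V : Type} [NormedAddCommGroup V] [NormedSpace ℝ V] {u v : ℝ × R3 → V}
    (hu : ContDiff ℝ 2 u) (hv : ContDiff ℝ 2 v) (q : ℝ × R3) :
    box (fun p => u p - v p) q = box u q - box v q := by
  simp only [box, LapX, D_D_sub hu hv, Finset.sum_sub_distrib]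
  abel

/-- the vector potential -/
def potU (K₀ : R3 → K6) (j : ℝ × R3 → R3) (p : ℝ × R3) : K6 := W K₀ p - S (fun q => (j q, 0)) p

/-- the Maxwell solver -/
def mxK (K₀ : R3 → K6) (ρ : ℝ × R3 → ℝ) (j : ℝ × R3 → R3) : ℝ × R3 → K6 := fld (potU K₀ j) (S ρ)

variable {K₀ : R3 → K6} {ρ : ℝ × R3 → ℝ} {j : ℝ × R3 → R3}

theorem contDiff_potU {n : ℕ∞} (hK : ContDiff ℝ n K₀) (hj : ContDiff ℝ n j) :
    ContDiff ℝ n (potU K₀ j) := (contDiff_W hK).sub (contDiff_S (hj.prodMk contDiff_const))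

theorem smooth_mxK (hK : ContDiff ℝ ∞ K₀) (hρ : ContDiff ℝ ∞ ρ) (hj : ContDiff ℝ ∞ j) :
    ContDiff ℝ ∞ (mxK K₀ ρ j) :=
  ((smooth_D (contDiff_potU hK hj) et).add (contDiff_RotX (contDiff_potU hK hj) (by simp))).sub
    (contDiff_GrX (contDiff_S hρ) (by simp))

theorem Dx_potU (hK : ContDiff ℝ 1 K₀) (hj : ContDiff ℝ 1 j) (a : R3) (p : ℝ × R3) :
    D (0, a) (potU K₀ j) p = W (D a K₀) p - S (fun q => (D (0, a) j q, 0)) p := by
  have hJ : ContDiff ℝ 1 fun q => (j q, (0 : R3)) := hj.prodMk contDiff_const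
  unfold potU
  rw [D_sub ((contDiff_W (n := 1) hK).differentiable (by simp) p)
    ((contDiff_S (n := 1) hJ).differentiable (by simp) p), Dx_W hK, Dx_S hJ]
  congr 2
  funext q
  exact D_clm (ContinuousLinearMap.inl ℝ R3 R3) (hj.differentiable (by simp) q) _

theorem mxK_zero (hK : ContDiff ℝ 1 K₀) (hρ : ContDiff ℝ 1 ρ) (hj : ContDiff ℝ 1 j) (x : R3) :
    mxK K₀ ρ j (0, x) = K₀ x := by
  have hJ : ContDiff ℝ 1 fun q => (j q, (0 : R3)) := hj.prodMk contDiff_const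
  simp only [mxK, fld, RotX, GrX, Dx_potU hK hj, Dx_S hρ, W_zero, S_zero]
  unfold potU
  rw [D_sub ((contDiff_W (n := 1) hK).differentiable (by simp) _)
    ((contDiff_S (n := 1) hJ).differentiable (by simp) _), Dt_W_zero hK, Dt_S hJ]
  simp [W_zero, S_zero]

/-- the solver satisfies Maxwell's equations on every open time interval containing `0` on which charge is conserved -/
theorem mxL_mxK (hK : ContDiff ℝ 2 K₀) (hρ : ContDiff ℝ 2 ρ) (hj : ContDiff ℝ 2 j) {I : Set ℝ}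
    (hI : IsOpen I) (hI' : ∀ t ∈ I, uIcc 0 t ⊆ I)
    (hc : ∀ t ∈ I, ∀ x, D et ρ (t, x) + ∑ i, D (ex i) j (t, x) i = 0)
    (hE : ∀ x, ∑ i, (D (e3 i) K₀ x).1 i = ρ (0, x)) (hB : ∀ x, ∑ i, (D (e3 i) K₀ x).2 i = 0)
    {q : ℝ × R3} (hq : q.1 ∈ I) : MxL (fderiv ℝ (mxK K₀ ρ j) q) (ρ q) (j q) := by
  have hK1 : ContDiff ℝ 1 K₀ := hK.of_le (by norm_num)
  have hρ1 : ContDiff ℝ 1 ρ := hρ.of_le (by norm_num)
  have hj1 : ContDiff ℝ 1 j := hj.of_le (by norm_num)
  have hJ : ContDiff ℝ 2 fun q => (j q, (0 : R3)) := hj.prodMk contDiff_const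
  have cK : ∀ a, Continuous (D a K₀) := fun a => (contDiff_D (m := 0) hK (by norm_num) a).continuous
  have cj : ∀ a, Continuous (D a j) := fun a => (contDiff_D (m := 0) hj (by norm_num) a).continuous
  have cJ : ∀ a, Continuous fun q => (D a j q, (0 : R3)) := fun a => (cj a).prodMk continuous_const
  refine mxL_fld (contDiff_potU (n := 2) hK hj) (contDiff_S (n := 2) hρ) ?_ (by rw [box_S hρ]) ?_ ?_
  · unfold potU
    rw [box_sub (contDiff_W (n := 2) hK) (contDiff_S (n := 2) hJ), box_W hK, box_S hJ, zero_sub]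
  · filter_upwards [continuous_fst.continuousAt.preimage_mem_nhds (hI.mem_nhds hq)] with p hp
    simp only [Dx_potU hK1 hj1, ← p1_apply, map_sub, Finset.sum_sub_distrib, ← W_clm _ (cK _),
      ← S_clm _ (cJ _)]
    rw [← W_sum (g := fun i x => p1 i (D (e3 i) K₀ x)) _ fun i _ => (p1 i).continuous.comp (cK _),
      ← S_sum (F := fun i x => p1 i (D (0, e3 i) j x, 0)) _ fun i _ => (p1 i).continuous.comp (cJ _),
      Dt_S hρ1]
    simp only [p1_apply, hE]
    rw [S_congr (G := fun q => -D et ρ q) fun τ hτ y =>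
      eq_neg_of_add_eq_zero_right (hc τ (hI' _ hp hτ) y), S_neg, sub_neg_eq_add]
    rfl
  · refine Eventually.of_forall fun p => ?_
    simp only [Dx_potU hK1 hj1, ← p2_apply, map_sub, Finset.sum_sub_distrib, ← W_clm _ (cK _),
      ← S_clm _ (cJ _)]
    rw [← W_sum (g := fun i x => p2 i (D (e3 i) K₀ x)) _ fun i _ => (p2 i).continuous.comp (cK _)]
    simp only [p2_apply, hB, W_fun_zero]
    simp [S_fun_zero]

/-- the wave equation satisfied by a Maxwell field -/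
theorem box_of_mxL {K : ℝ × R3 → K6} {q : ℝ × R3} (hK : ContDiffAt ℝ 2 K q)
    (hj : DifferentiableAt ℝ j q) (h : ∀ᶠ p in 𝓝 q, MxL (fderiv ℝ K p) (ρ p) (j p)) :
    box K q = -(D et j q, 0) - ∑ i, HR.rot i (D (ex i) j q, 0) - GrX ρ q := by
  have sK := fun a b => D_comm (x := q) hK a b
  have hJ : DifferentiableAt ℝ (fun p => (j p, (0 : R3))) q := hj.prodMk (differentiableAt_const _)
  have dR : DifferentiableAt ℝ (fun p => ∑ i, HR.rot i (D (ex i) K p)) q :=
    DifferentiableAt.fun_sum fun i _ => ((HR.rot i).differentiableAt.comp q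
      ((contDiffAt_D (m := 1) hK (by norm_num) _).differentiableAt (by simp)) :)
  have k1 : ∀ a, D a (D et K) q = ∑ i, HR.rot i (D a (D (ex i) K) q) - (D a j q, 0) := fun a => by
    rw [D_congr (u := D et K) (v := fun p => ∑ i, HR.rot i (D (ex i) K p) - (j p, 0))
      (h.mono fun p hp => hp.ev),
      D_sub dR hJ, D_op HR.rot ex hK]
    congr 1
    exact D_clm (ContinuousLinearMap.inl ℝ R3 R3) hj _
  have k3 : ∀ a, ∑ i, (D a (D (ex i) K) q).1 i = D a ρ q := fun a =>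
    (D_op p1 ex hK a).symm.trans (D_congr (h.mono fun p hp => hp.dE) a)
  have k4 : ∀ a, ∑ i, (D a (D (ex i) K) q).2 i = 0 := fun a => by
    refine (D_op p2 ex hK a).symm.trans
      ((D_congr (v := fun _ => 0) (h.mono fun p hp => hp.dB) a).trans ?_)
    simp [D]
  rw [box, LapX, k1 et]
  simp only [sK et, k1, map_sub, Finset.sum_sub_distrib]
  rw [rot_rot _ fun i k => sK _ _]
  simp only [k3, k4]
  have e1 : GrX ρ q = (∑ i, D (ex i) ρ q • e3 i, ∑ i, (0 : ℝ) • e3 i) := by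
    simp only [GrX, gr_apply]
    ext l <;> simp [Prod.fst_sum, Prod.snd_sum]
  rw [e1]
  abel

/-- the source of the wave equation -/
def src (ρ : ℝ × R3 → ℝ) (j : ℝ × R3 → R3) (q : ℝ × R3) : K6 :=
  -(D et j q, 0) - ∑ i, HR.rot i (D (ex i) j q, 0) - GrX ρ q

theorem S_congr_Ioo {V : Type} [NormedAddCommGroup V] [NormedSpace ℝ V] {F G : ℝ × R3 → V}
    {p : ℝ × R3} (h : ∀ τ ∈ uIoo 0 p.1, ∀ y, F (τ, y) = G (τ, y)) : S F p = S G p := by
  refine intervalIntegral.integral_congr_uIoo fun r hr => ?_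
  have : p.1 - r ∈ uIoo 0 p.1 := by
    rcases le_total 0 p.1 with h | h
    · rw [uIoo_of_le h] at hr ⊢
      constructor <;> linarith [hr.1, hr.2]
    · rw [uIoo_of_ge h] at hr ⊢
      constructor <;> linarith [hr.1, hr.2]
  simp only [N, h _ this]

/-- retarded representation of a `C²` field that solves Maxwell's equations for times between `0` and `p.1` -/
theorem rep_of_mxL {K : ℝ × R3 → K6} (hK : ContDiff ℝ 2 K) (hj : ContDiff ℝ 1 j) {p : ℝ × R3}
    (h : ∀ τ ∈ uIcc 0 p.1, ∀ y, MxL (fderiv ℝ K (τ, y)) (ρ (τ, y)) (j (τ, y))) :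
    K p = D et (W (sl K 0)) p + W (fun x => Rot0 (sl K 0) x - (j (0, x), 0)) p + S (src ρ j) p := by
  rw [kirchhoff hK p]
  congr 1
  · congr 2
    funext x
    simp only [Rot0, D_sl_eq (hK.of_le (by norm_num) : ContDiff ℝ 1 K)]
    exact (h 0 left_mem_uIcc x).ev
  · refine S_congr_Ioo fun τ hτ y => box_of_mxL hK.contDiffAt (hj.differentiable (by simp) _) ?_
    have ho : IsOpen (uIoo 0 p.1) := isOpen_Ioo
    filter_upwards [(continuous_fst (X := ℝ) (Y := R3)).continuousAt.preimage_mem_nhds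
      (x := (τ, y)) (ho.mem_nhds hτ)] with z hz
    exact h z.1 (uIoo_subset_uIcc_self hz) z.2

end Crest.Agent.R106.Wave
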