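import Mathlib

/-!
Row 106.  Parametric integrals over a finite measure carried by a compact set: continuity,
differentiation under the integral, `C^n` regularity (pointwise hypotheses `ContDiffAt`).
-/

set_option autoImplicit false
set_option linter.unusedSectionVars false

noncomputable section

namespace Crest.Agent.R106.Wave

open MeasureTheory Metric Set Filter Topology
open scoped ContDiff

variable {P X : Type} [NormedAddCommGroup P] [NormedSpace ℝ P] [FiniteDimensional ℝ P]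
  [NormedAddCommGroup X] [NormedSpace ℝ X] [MeasurableSpace X] [BorelSpace X]
  [SecondCountableTopology X]
  {μ : Measure X} [IsFiniteMeasure μ] {K : Set X}

theorem tube {O : Set (P × X)} (hO : IsOpen O) (hK : IsCompact K) {p : P}
    (h : ∀ u ∈ K, (p, u) ∈ O) : ∃ ε > 0, ∀ q ∈ closedBall p ε, ∀ u ∈ K, (q, u) ∈ O := by
  obtain ⟨U, W, hU, -, hpU, hKW, hUW⟩ := generalized_tube_lemma (isCompact_singleton (x := p)) hK hO
    (by rintro ⟨a, b⟩ ⟨ha, hb⟩; obtain rfl : a = p := ha; exact h b hb)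
  obtain ⟨ε, hε, hb⟩ := Metric.nhds_basis_closedBall.mem_iff.1 (hU.mem_nhds (hpU (mem_singleton p)))
  exact ⟨ε, hε, fun q hq u hu => hUW ⟨hb hq, hKW hu⟩⟩

theorem aesm_of_contOn {V : Type} [NormedAddCommGroup V] (hK : IsCompact K)
    (hμ : ∀ᵐ u ∂μ, u ∈ K) {g : X → V} (hg : ContinuousOn g K) : AEStronglyMeasurable g μ := by
  rw [← Measure.restrict_eq_self_of_ae_mem hμ]
  exact hg.aestronglyMeasurable hK.isClosed.measurableSet

theorem integrable_of_contOn {V : Type} [NormedAddCommGroup V] (hK : IsCompact K)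
    (hμ : ∀ᵐ u ∂μ, u ∈ K) {g : X → V} (hg : ContinuousOn g K) : Integrable g μ := by
  obtain ⟨C, hC⟩ := hK.exists_bound_of_continuousOn hg
  exact Integrable.of_bound (aesm_of_contOn hK hμ hg) C (hμ.mono hC)

theorem contAt_tube {V : Type} [NormedAddCommGroup V] [NormedSpace ℝ V] (hK : IsCompact K)
    {n : ℕ} {F : P × X → V} {p : P} (hF : ∀ u ∈ K, ContDiffAt ℝ n F (p, u)) :
    ∃ ε > 0, ∀ q ∈ closedBall p ε, ∀ u ∈ K, ContDiffAt ℝ n F (q, u) := by
  have hO : IsOpen {z | ContDiffAt ℝ n F z} :=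
    isOpen_iff_mem_nhds.2 fun z hz => ContDiffAt.eventually hz (by simp)
  exact tube hO hK hF

theorem continuousAt_int {V : Type} [NormedAddCommGroup V] [NormedSpace ℝ V] (hK : IsCompact K)
    (hμ : ∀ᵐ u ∂μ, u ∈ K) {F : P × X → V} {p : P} {ε : ℝ} (hε : 0 < ε)
    (hF : ContinuousOn F (closedBall p ε ×ˢ K)) :
    ContinuousAt (fun q => ∫ u, F (q, u) ∂μ) p := by
  obtain ⟨C, hC⟩ := ((isCompact_closedBall p ε).prod hK).exists_bound_of_continuousOn hF
  have hb : closedBall p ε ∈ 𝓝 p := closedBall_mem_nhds p hε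
  refine continuousAt_of_dominated (bound := fun _ => C) ?_ ?_ (integrable_const C) ?_
  · filter_upwards [hb] with q hq
    exact aesm_of_contOn hK hμ (hF.comp (by fun_prop) fun u hu => ⟨hq, hu⟩)
  · filter_upwards [hb] with q hq
    exact hμ.mono fun u hu => hC (q, u) ⟨hq, hu⟩
  · refine hμ.mono fun u hu => ?_
    have : ContinuousOn (fun q => F (q, u)) (closedBall p ε) :=
      hF.comp (by fun_prop) fun q hq => ⟨hq, hu⟩
    exact this.continuousAt hb

/-- differentiation under the integral sign -/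
theorem hasFDerivAt_int {V : Type} [NormedAddCommGroup V] [NormedSpace ℝ V] (hK : IsCompact K)
    (hμ : ∀ᵐ u ∂μ, u ∈ K) {F : P × X → V} {p : P} (hF : ∀ u ∈ K, ContDiffAt ℝ 1 F (p, u)) :
    HasFDerivAt (fun q => ∫ u, F (q, u) ∂μ)
      (∫ u, (fderiv ℝ F (p, u)).comp (ContinuousLinearMap.inl ℝ P X) ∂μ) p := by
  obtain ⟨ε, hε, hb⟩ := contAt_tube (n := 1) hK hF
  have hc : ContinuousOn F (closedBall p ε ×ˢ K) := fun z hz =>
    (hb z.1 hz.1 z.2 hz.2).continuousAt.continuousWithinAt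
  have hc' : ContinuousOn (fun z => (fderiv ℝ F z).comp (ContinuousLinearMap.inl ℝ P X))
      (closedBall p ε ×ˢ K) := fun z hz => by
    have h1 : ContinuousAt (fderiv ℝ F) z :=
      ((hb z.1 hz.1 z.2 hz.2).fderiv_right (m := 0) (by simp)).continuousAt
    exact (h1.clm_comp continuousAt_const).continuousWithinAt
  obtain ⟨C, hC⟩ := ((isCompact_closedBall p ε).prod hK).exists_bound_of_continuousOn hc'
  have hnb : closedBall p ε ∈ 𝓝 p := closedBall_mem_nhds p hε
  have hp : p ∈ closedBall p ε := mem_closedBall_self hε.le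
  refine hasFDerivAt_integral_of_dominated_of_fderiv_le (s := closedBall p ε)
    (F' := fun q u => (fderiv ℝ F (q, u)).comp (ContinuousLinearMap.inl ℝ P X))
    (bound := fun _ => C) hnb ?_ ?_ ?_ ?_ (integrable_const C) ?_
  · filter_upwards [hnb] with q hq
    exact aesm_of_contOn hK hμ (hc.comp (by fun_prop) fun u hu => ⟨hq, hu⟩)
  · exact integrable_of_contOn hK hμ (hc.comp (by fun_prop) fun u hu => ⟨hp, hu⟩)
  · exact aesm_of_contOn hK hμ (hc'.comp (f := fun u => (p, u)) (by fun_prop) fun u hu => ⟨hp, hu⟩)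
  · exact hμ.mono fun u hu q hq => hC (q, u) ⟨hq, hu⟩
  · refine hμ.mono fun u hu q hq => ?_
    have h1 := ((hb q hq u hu).differentiableAt (by simp)).hasFDerivAt
    exact h1.comp q (hasFDerivAt_prodMk_left q u)

theorem contDiffAt_int_nat (hK : IsCompact K) (hμ : ∀ᵐ u ∂μ, u ∈ K) (n : ℕ) :
    ∀ {V : Type} [NormedAddCommGroup V] [NormedSpace ℝ V] {F : P × X → V} {p : P},
      (∀ u ∈ K, ContDiffAt ℝ n F (p, u)) → ContDiffAt ℝ n (fun q => ∫ u, F (q, u) ∂μ) p := by
  induction n with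
  | zero =>
    intro V _ _ F p hF
    obtain ⟨ε, hε, hb⟩ := contAt_tube hK hF
    rw [Nat.cast_zero, contDiffAt_zero]
    refine ⟨ball p ε, ball_mem_nhds p hε, fun q hq => ContinuousAt.continuousWithinAt ?_⟩
    obtain ⟨δ, hδ, hb'⟩ := contAt_tube hK (hb q (ball_subset_closedBall hq))
    exact continuousAt_int hK hμ hδ fun z hz =>
      (hb' z.1 hz.1 z.2 hz.2).continuousAt.continuousWithinAt
  | succ n ih =>
    intro V _ _ F p hF
    obtain ⟨ε, hε, hb⟩ := contAt_tube hK hF
    rw [Nat.cast_succ, contDiffAt_succ_iff_hasFDerivAt]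
    refine ⟨fun q => ∫ u, (fderiv ℝ F (q, u)).comp (ContinuousLinearMap.inl ℝ P X) ∂μ,
      ⟨closedBall p ε, closedBall_mem_nhds p hε, fun q hq => hasFDerivAt_int hK hμ fun u hu =>
        (hb q hq u hu).of_le (by exact_mod_cast Nat.le_add_left 1 n)⟩, ?_⟩
    refine ih (F := fun z => (fderiv ℝ F z).comp (ContinuousLinearMap.inl ℝ P X)) fun u hu => ?_
    exact ((hF u hu).fderiv_right (m := n) (by simp)).clm_comp contDiffAt_const

theorem contDiffAt_int (hK : IsCompact K) (hμ : ∀ᵐ u ∂μ, u ∈ K) {n : ℕ∞}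
    {V : Type} [NormedAddCommGroup V] [NormedSpace ℝ V] {F : P × X → V} {p : P}
    (hF : ∀ u ∈ K, ContDiffAt ℝ n F (p, u)) : ContDiffAt ℝ n (fun q => ∫ u, F (q, u) ∂μ) p := by
  induction n using ENat.recTopCoe with
  | top =>
    exact contDiffAt_infty.2 fun k => contDiffAt_int_nat hK hμ k fun u hu =>
      contDiffAt_infty.1 (hF u hu) k
  | coe k => exact contDiffAt_int_nat hK hμ k hF

theorem contDiff_int (hK : IsCompact K) (hμ : ∀ᵐ u ∂μ, u ∈ K) {n : ℕ∞}
    {V : Type} [NormedAddCommGroup V] [NormedSpace ℝ V] {F : P × X → V}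
    (hF : ContDiff ℝ n F) : ContDiff ℝ n (fun q => ∫ u, F (q, u) ∂μ) :=
  contDiff_iff_contDiffAt.2 fun _ => contDiffAt_int hK hμ fun _ _ => hF.contDiffAt

/-- the derivative applied to a vector -/
theorem fderiv_int_apply {V : Type} [NormedAddCommGroup V] [NormedSpace ℝ V] [CompleteSpace V]
    (hK : IsCompact K) (hμ : ∀ᵐ u ∂μ, u ∈ K) {F : P × X → V} {p : P}
    (hF : ∀ u ∈ K, ContDiffAt ℝ 1 F (p, u)) (e : P) :
    fderiv ℝ (fun q => ∫ u, F (q, u) ∂μ) p e = ∫ u, fderiv ℝ F (p, u) (e, 0) ∂μ := by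
  rw [(hasFDerivAt_int hK hμ hF).fderiv, ContinuousLinearMap.integral_apply]
  · simp
  · refine integrable_of_contOn hK hμ fun u hu => ContinuousAt.continuousWithinAt ?_
    have h1 : ContinuousAt (fderiv ℝ F) (p, u) :=
      ((hF u hu).fderiv_right (m := 0) (by simp)).continuousAt
    exact (h1.comp (f := fun u => (p, u)) (by fun_prop)).clm_comp continuousAt_const

end Crest.Agent.R106.Wave
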