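import Crest.Agent.R106.Wave.Param
import Crest.Agent.R230.Sph
import Crest.Prelude.Def_VecCalc3

/-!
Row 106.  Calculus on the unit sphere of `ℝ³`: rotation derivatives integrate to zero, the
spherical divergence formula, the Darboux identity.
-/

set_option autoImplicit false
set_option linter.unusedSectionVars false

noncomputable section

namespace Crest.Agent.R106.Wave

open MeasureTheory Metric Set Filter Topology
open scoped ContDiff InnerProductSpace
open Crest.AnalysisR.VecCalc3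

/-- uniform probability measure on the unit sphere, as a measure on `R3` -/
abbrev sg : Measure R3 := R230.sg 3

/-- standard basis vector -/
abbrev e3 (i : Fin 3) : R3 := EuclideanSpace.single i 1

theorem sg_ae_norm : ∀ᵐ w ∂sg, ‖w‖ = 1 := R230.ae_norm

theorem sg_ae_mem : ∀ᵐ w ∂sg, w ∈ sphere (0 : R3) 1 :=
  sg_ae_norm.mono fun _ h => mem_sphere_zero_iff_norm.2 h

theorem cpt_sph : IsCompact (sphere (0 : R3) 1) := isCompact_sphere _ _

section D

variable {X V : Type} [NormedAddCommGroup X] [NormedSpace ℝ X] [NormedAddCommGroup V]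
  [NormedSpace ℝ V]

/-- directional derivative -/
def D (e : X) (g : X → V) : X → V := fun x => fderiv ℝ g x e

theorem D_apply (e : X) (g : X → V) (x : X) : D e g x = fderiv ℝ g x e := rfl

theorem contDiffAt_D {m n : WithTop ℕ∞} {g : X → V} {x : X} (hg : ContDiffAt ℝ n g x)
    (h : m + 1 ≤ n) (e : X) : ContDiffAt ℝ m (D e g) x :=
  (hg.fderiv_right h).clm_apply contDiffAt_const

theorem contDiff_D {m n : WithTop ℕ∞} {g : X → V} (hg : ContDiff ℝ n g) (h : m + 1 ≤ n) (e : X) :
    ContDiff ℝ m (D e g) :=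
  contDiff_iff_contDiffAt.2 fun _ => contDiffAt_D hg.contDiffAt h e

theorem smooth_D {g : X → V} (hg : ContDiff ℝ ∞ g) (e : X) : ContDiff ℝ ∞ (D e g) :=
  contDiff_D hg (by simp) e

theorem D_D_eq {g : X → V} {x : X} (hg : ContDiffAt ℝ 2 g x) (a b : X) :
    D a (D b g) x = fderiv ℝ (fderiv ℝ g) x a b := by
  have h1 : DifferentiableAt ℝ (fderiv ℝ g) x :=
    (hg.fderiv_right (m := 1) (by norm_num)).differentiableAt (by simp)
  have := (h1.hasFDerivAt.clm_apply (hasFDerivAt_const b x)).fderiv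
  unfold D
  rw [this]
  simp

theorem D_comm {g : X → V} {x : X} (hg : ContDiffAt ℝ 2 g x) (a b : X) :
    D a (D b g) x = D b (D a g) x := by
  rw [D_D_eq hg, D_D_eq hg]
  exact (hg.isSymmSndFDerivAt (by simp)).eq a b

theorem D_add_left (a b : X) (g : X → V) (x : X) : D (a + b) g x = D a g x + D b g x :=
  map_add _ _ _

theorem D_smul_left (c : ℝ) (a : X) (g : X → V) (x : X) : D (c • a) g x = c • D a g x :=
  map_smul _ _ _

theorem D_add {f g : X → V} {x : X} (hf : DifferentiableAt ℝ f x) (hg : DifferentiableAt ℝ g x)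
    (e : X) : D e (fun y => f y + g y) x = D e f x + D e g x := by
  unfold D; rw [fderiv_fun_add hf hg]; rfl

theorem D_sub {f g : X → V} {x : X} (hf : DifferentiableAt ℝ f x) (hg : DifferentiableAt ℝ g x)
    (e : X) : D e (fun y => f y - g y) x = D e f x - D e g x := by
  unfold D; rw [fderiv_fun_sub hf hg]; rfl

theorem D_neg (f : X → V) (x e : X) : D e (fun y => -f y) x = -D e f x := by
  unfold D; rw [fderiv_fun_neg]; rfl

theorem D_smul {c : X → ℝ} {g : X → V} {x : X} (hc : DifferentiableAt ℝ c x)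
    (hg : DifferentiableAt ℝ g x) (e : X) :
    D e (fun y => c y • g y) x = c x • D e g x + D e c x • g x := by
  unfold D; rw [fderiv_fun_smul hc hg]; simp

theorem D_sum {ι : Type} (s : Finset ι) {g : ι → X → V} {x : X}
    (hg : ∀ i ∈ s, DifferentiableAt ℝ (g i) x) (e : X) :
    D e (fun y => ∑ i ∈ s, g i y) x = ∑ i ∈ s, D e (g i) x := by
  unfold D; rw [fderiv_fun_sum hg]; simp

theorem D_clm {V' : Type} [NormedAddCommGroup V'] [NormedSpace ℝ V'] (L : V →L[ℝ] V')
    {g : X → V} {x : X} (hg : DifferentiableAt ℝ g x) (e : X) :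
    D e (fun y => L (g y)) x = L (D e g x) := by
  exact congrArg (fun A : X →L[ℝ] V' => A e) (L.hasFDerivAt.comp x hg.hasFDerivAt).fderiv

theorem D_comp {Y : Type} [NormedAddCommGroup Y] [NormedSpace ℝ Y] {g : X → V} {φ : Y → X}
    {y : Y} (hg : DifferentiableAt ℝ g (φ y)) (hφ : DifferentiableAt ℝ φ y) (e : Y) :
    D e (fun z => g (φ z)) y = D (D e φ y) g (φ y) := by
  exact congrArg (fun A : Y →L[ℝ] V => A e) (hg.hasFDerivAt.comp y hφ.hasFDerivAt).fderiv

theorem hasDerivAt_D {g : ℝ → V} {t : ℝ} (hg : DifferentiableAt ℝ g t) :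
    HasDerivAt g (D 1 g t) t := hg.hasFDerivAt.hasDerivAt

theorem D_of_hasDerivAt {g : ℝ → V} {t : ℝ} {v : V} (hg : HasDerivAt g v t) : D 1 g t = v := by
  unfold D; rw [hg.hasFDerivAt.fderiv]; simp

end D

theorem sum_e3 (w : R3) : ∑ i, w i • e3 i = w := by
  ext k; fin_cases k <;> simp [Fin.sum_univ_three]

variable {V : Type} [NormedAddCommGroup V] [NormedSpace ℝ V] [CompleteSpace V]

theorem D_eq_sum (w : R3) (g : R3 → V) (x : R3) : D w g x = ∑ i, w i • D (e3 i) g x := by
  conv_lhs => rw [← sum_e3 w]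
  simp only [D, map_sum, map_smul]

/-- Laplacian -/
def Lap (g : R3 → V) : R3 → V := fun x => ∑ i, D (e3 i) (D (e3 i) g) x

/-- rotation in the `(i, j)` plane -/
def rot (i j : Fin 3) (θ : ℝ) : R3 →L[ℝ] R3 :=
  ContinuousLinearMap.id ℝ R3 + Real.sin θ • ((EuclideanSpace.proj i).smulRight (e3 j) -
    (EuclideanSpace.proj j).smulRight (e3 i)) + (Real.cos θ - 1) •
    ((EuclideanSpace.proj i).smulRight (e3 i) + (EuclideanSpace.proj j).smulRight (e3 j))

theorem rot_apply (i j : Fin 3) (θ : ℝ) (w : R3) : rot i j θ w =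
    w + Real.sin θ • (w i • e3 j - w j • e3 i) + (Real.cos θ - 1) • (w i • e3 i + w j • e3 j) := by
  simp [rot]

theorem norm_rot {i j : Fin 3} (hij : i ≠ j) (θ : ℝ) (w : R3) : ‖rot i j θ w‖ = ‖w‖ := by
  have h := Real.sin_sq_add_cos_sq θ
  rw [EuclideanSpace.norm_eq, EuclideanSpace.norm_eq, rot_apply]
  congr 1
  fin_cases i <;> fin_cases j <;> simp [Fin.sum_univ_three] at hij ⊢
  · linear_combination (w 0 ^ 2 + w 1 ^ 2) * h
  · linear_combination (w 0 ^ 2 + w 2 ^ 2) * h
  · linear_combination (w 0 ^ 2 + w 1 ^ 2) * h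
  · linear_combination (w 1 ^ 2 + w 2 ^ 2) * h
  · linear_combination (w 0 ^ 2 + w 2 ^ 2) * h
  · linear_combination (w 1 ^ 2 + w 2 ^ 2) * h

theorem int_rot {i j : Fin 3} (hij : i ≠ j) (θ : ℝ) (h : R3 → V) :
    ∫ w, h (rot i j θ w) ∂sg = ∫ w, h w ∂sg := by
  let L : R3 →ₗᵢ[ℝ] R3 := ⟨(rot i j θ).toLinearMap, norm_rot hij θ⟩
  let f : R3 ≃ₗᵢ[ℝ] R3 := L.toLinearIsometryEquiv rfl
  exact (R230.mp_isom f).integral_comp f.toHomeomorph.measurableEmbedding h

/-- the rotation derivative integrates to zero -/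
theorem int_D_rot {h : R3 → V} (hh : ∀ w, ‖w‖ = 1 → ContDiffAt ℝ 1 h w) (i j : Fin 3) :
    ∫ w, D (w i • e3 j - w j • e3 i) h w ∂sg = 0 := by
  by_cases hij : i = j
  · subst hij; simp [D]
  have hr : ContDiff ℝ 1 fun z : ℝ × R3 => rot i j z.1 z.2 := by
    simp only [rot_apply]; fun_prop
  have h0 : ∀ w : R3, rot i j 0 w = w := fun w => by simp [rot_apply]
  have hF : ∀ w ∈ sphere (0 : R3) 1, ContDiffAt ℝ 1 (fun z : ℝ × R3 => h (rot i j z.1 z.2)) (0, w) :=
    fun w hw => ContDiffAt.comp (g := h) (0, w)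
      (by simpa only [h0] using hh w (mem_sphere_zero_iff_norm.1 hw)) hr.contDiffAt
  have h1 := fderiv_int_apply (μ := sg) cpt_sph sg_ae_mem hF (1 : ℝ)
  simp only [int_rot hij, fderiv_fun_const, Pi.zero_apply, zero_apply] at h1
  rw [h1]
  refine integral_congr_ae (sg_ae_norm.mono fun w hw => ?_)
  have h2 : HasDerivAt (fun θ : ℝ => rot i j θ w) (w i • e3 j - w j • e3 i) 0 := by
    simp only [rot_apply]
    have := ((hasDerivAt_const (0 : ℝ) w).add ((Real.hasDerivAt_sin 0).smul_const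
      (w i • e3 j - w j • e3 i))).add (((Real.hasDerivAt_cos 0).sub_const 1).smul_const
        (w i • e3 i + w j • e3 j))
    refine HasDerivAt.congr_deriv this ?_
    simp
  have h3 : HasDerivAt (fun θ : ℝ => h (rot i j θ w)) (D (w i • e3 j - w j • e3 i) h w) 0 := by
    have hd : HasFDerivAt h (fderiv ℝ h w) (rot i j 0 w) := by
      rw [h0]; exact ((hh w hw).differentiableAt (by simp)).hasFDerivAt
    exact hd.comp_hasDerivAt 0 h2
  have h4 : HasDerivAt (fun θ : ℝ => h (rot i j θ w))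
      (fderiv ℝ (fun z : ℝ × R3 => h (rot i j z.1 z.2)) (0, w) (1, 0)) 0 := by
    have hd := ((hF w (mem_sphere_zero_iff_norm.2 hw)).differentiableAt (by simp)).hasFDerivAt
    exact hd.comp_hasDerivAt (f := fun θ : ℝ => (θ, w)) 0
      ((hasDerivAt_id 0).prodMk (hasDerivAt_const 0 w))
  exact h3.unique h4

theorem integrable_sg {g : R3 → V} (hg : ContinuousOn g (sphere 0 1)) : Integrable g sg :=
  integrable_of_contOn cpt_sph sg_ae_mem hg

theorem contOn_fderiv {h : R3 → V} (hh : ∀ w, ‖w‖ = 1 → ContDiffAt ℝ 1 h w) :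
    ContinuousOn (fderiv ℝ h) (sphere 0 1) := fun w hw =>
  ((hh w (mem_sphere_zero_iff_norm.1 hw)).fderiv_right (m := 0)
    (by simp)).continuousAt.continuousWithinAt

/-- cross product form -/
theorem int_D_cross {h : R3 → V} (hh : ∀ w, ‖w‖ = 1 → ContDiffAt ℝ 1 h w) (a : R3) :
    ∫ w, D (cross3 a w) h w ∂sg = 0 := by
  have hc := contOn_fderiv hh
  have hi : ∀ i j : Fin 3, Integrable (fun w : R3 => D (w i • e3 j - w j • e3 i) h w) sg :=
    fun i j => integrable_sg (hc.clm_apply (by fun_prop))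
  have : ∀ w : R3, D (cross3 a w) h w = a 0 • D (w 1 • e3 2 - w 2 • e3 1) h w +
      a 1 • D (w 2 • e3 0 - w 0 • e3 2) h w + a 2 • D (w 0 • e3 1 - w 1 • e3 0) h w := by
    intro w
    rw [← D_smul_left, ← D_smul_left, ← D_smul_left, ← D_add_left, ← D_add_left]
    congr 1
    ext k; fin_cases k <;> simp [cross3] <;> ring
  simp only [this]
  have hs : ∀ (c : ℝ) (i j : Fin 3),
      Integrable (fun w : R3 => c • D (w i • e3 j - w j • e3 i) h w) sg :=
    fun c i j => (hi i j).smul c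
  have hs2 : Integrable (fun w : R3 => a 0 • D (w 1 • e3 2 - w 2 • e3 1) h w +
      a 1 • D (w 2 • e3 0 - w 0 • e3 2) h w) sg := (hs _ 1 2).add (hs _ 2 0)
  rw [integral_add hs2 (hs _ 0 1),
    integral_add (hs _ 1 2) (hs _ 2 0), integral_smul, integral_smul, integral_smul,
    int_D_rot hh, int_D_rot hh, int_D_rot hh]
  simp

/-- spherical divergence formula: the tangential gradient `D (e i - w i • w) h` has mean
`2 ∫ w i • h` -/
theorem int_D_tan {h : R3 → V} (hh : ∀ w, ‖w‖ = 1 → ContDiffAt ℝ 1 h w) (i : Fin 3) :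
    ∫ w, D (e3 i - w i • w) h w ∂sg = ∫ w, (2 * w i) • h w ∂sg := by
  have hc := contOn_fderiv hh
  have hc0 : ContinuousOn h (sphere 0 1) := fun w hw =>
    (hh w (mem_sphere_zero_iff_norm.1 hw)).continuousAt.continuousWithinAt
  have hj : ∀ j : Fin 3, ∀ w : R3, ‖w‖ = 1 → ContDiffAt ℝ 1 (fun y : R3 => y j • h y) w :=
    fun j w hw => ContDiffAt.smul (by fun_prop) (hh w hw)
  have hi : ∀ j : Fin 3, Integrable
      (fun w : R3 => D (w j • e3 i - w i • e3 j) (fun y : R3 => y j • h y) w) sg :=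
    fun j => integrable_sg ((contOn_fderiv (hj j)).clm_apply (by fun_prop))
  have h1 : ∫ w, ∑ j, D (w j • e3 i - w i • e3 j) (fun y : R3 => y j • h y) w ∂sg = 0 := by
    rw [integral_finsetSum _ fun j _ => hi j]
    exact Finset.sum_eq_zero fun j _ => int_D_rot (hj j) j i
  have i1 : Integrable (fun w : R3 => D (e3 i - w i • w) h w) sg :=
    integrable_sg (hc.clm_apply (by fun_prop))
  have i2 : Integrable (fun w : R3 => (2 * w i) • h w) sg :=
    integrable_sg (ContinuousOn.smul (by fun_prop) hc0)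
  rw [← sub_eq_zero, ← integral_sub i1 i2, ← h1]
  refine integral_congr_ae (sg_ae_norm.mono fun w hw => ?_)
  have hd : DifferentiableAt ℝ h w := (hh w hw).differentiableAt (by simp)
  have hn : w 0 ^ 2 + w 1 ^ 2 + w 2 ^ 2 = 1 := by
    have := EuclideanSpace.real_norm_sq_eq w
    rw [hw, Fin.sum_univ_three] at this
    linarith
  have h2 : ∀ j : Fin 3, D (w j • e3 i - w i • e3 j) (fun y : R3 => y j • h y) w =
      D (w j • (w j • e3 i - w i • e3 j)) h w + ((w j • e3 i - w i • e3 j : R3) j) • h w := by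
    intro j
    rw [D_smul (c := fun y : R3 => y j) (by fun_prop) hd, D_smul_left]
    congr 2
    exact congrArg (fun L : R3 →L[ℝ] ℝ => L _) (EuclideanSpace.proj (𝕜 := ℝ) j).fderiv
  simp only [h2, Finset.sum_add_distrib]
  rw [← Finset.sum_smul]
  have h3 : ∑ j, D (w j • (w j • e3 i - w i • e3 j)) h w = D (e3 i - w i • w) h w := by
    simp only [D]
    rw [← map_sum]
    congr 1
    ext k
    fin_cases i <;> fin_cases k <;> simp [Fin.sum_univ_three] <;>
      first | linear_combination hn | ring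
  have h4 : ∑ j, (w j • e3 i - w i • e3 j : R3) j = -(2 * w i) := by
    fin_cases i <;> simp <;> ring
  rw [h3, h4, neg_smul, sub_eq_add_neg]

/-- Darboux identity, pointwise in `(r, x)` -/
theorem darboux {g : R3 → V} {x : R3} {r : ℝ}
    (hg : ∀ w : R3, ‖w‖ = 1 → ContDiffAt ℝ 2 g (x + r • w)) :
    ∫ w, ((2 : ℝ) • D w g (x + r • w) + r • D w (D w g) (x + r • w)) ∂sg =
      r • ∫ w, Lap g (x + r • w) ∂sg := by
  have hφ : ContDiff ℝ 1 fun w : R3 => x + r • w := by fun_prop
  have h1 : ∀ (i : Fin 3) (w : R3), ‖w‖ = 1 →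
      ContDiffAt ℝ 1 (fun w : R3 => D (e3 i) g (x + r • w)) w := fun i w hw =>
    ContDiffAt.comp (g := D (e3 i) g) w (contDiffAt_D (hg w hw) (by norm_num) _) hφ.contDiffAt
  have h2 : ∀ (i : Fin 3) (w : R3), ‖w‖ = 1 → ∀ a : R3,
      D a (fun w : R3 => D (e3 i) g (x + r • w)) w = r • D a (D (e3 i) g) (x + r • w) := by
    intro i w hw a
    rw [D_comp (g := D (e3 i) g) (φ := fun w : R3 => x + r • w)
      ((contDiffAt_D (m := 1) (hg w hw) (by norm_num) _).differentiableAt (by simp))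
      (hφ.differentiable (by simp) w), ← D_smul_left]
    congr 1
    have : HasFDerivAt (fun w : R3 => x + r • w) (r • ContinuousLinearMap.id ℝ R3) w :=
      ((hasFDerivAt_id w).const_smul r).const_add x
    rw [D, this.fderiv]; simp
  have hA : ∀ i : Fin 3, Integrable
      (fun w : R3 => D (e3 i - w i • w) (fun w : R3 => D (e3 i) g (x + r • w)) w) sg :=
    fun i => integrable_sg ((contOn_fderiv (h1 i)).clm_apply (by fun_prop))
  have hB : ∀ i : Fin 3, Integrable (fun w : R3 => (2 * w i) • D (e3 i) g (x + r • w)) sg :=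
    fun i => integrable_sg (ContinuousOn.smul (by fun_prop) fun w hw =>
      (h1 i w (mem_sphere_zero_iff_norm.1 hw)).continuousAt.continuousWithinAt)
  have hC : ∀ i : Fin 3, Integrable
      (fun w : R3 => D (e3 i) (fun w : R3 => D (e3 i) g (x + r • w)) w) sg :=
    fun i => integrable_sg ((contOn_fderiv (h1 i)).clm_apply (by fun_prop))
  have hBA : ∀ i : Fin 3, Integrable (fun w : R3 => (2 * w i) • D (e3 i) g (x + r • w) -
      D (e3 i - w i • w) (fun w : R3 => D (e3 i) g (x + r • w)) w) sg := fun i => (hB i).sub (hA i)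
  have h3 : ∫ w, ∑ i, ((2 * w i) • D (e3 i) g (x + r • w) -
      D (e3 i - w i • w) (fun w : R3 => D (e3 i) g (x + r • w)) w) ∂sg = 0 := by
    rw [integral_finsetSum _ fun i _ => hBA i]
    refine Finset.sum_eq_zero fun i _ => ?_
    rw [integral_sub (hB i) (hA i), int_D_tan (h1 i), sub_self]
  have h4 : r • ∫ w, Lap g (x + r • w) ∂sg =
      ∫ w, ∑ i, D (e3 i) (fun w : R3 => D (e3 i) g (x + r • w)) w ∂sg := by
    rw [← integral_smul]
    refine integral_congr_ae (sg_ae_norm.mono fun w hw => ?_)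
    simp only [h2 _ w hw, Lap, Finset.smul_sum]
  rw [h4, ← zero_add (∫ w, ∑ i, D (e3 i) (fun w : R3 => D (e3 i) g (x + r • w)) w ∂sg), ← h3,
    ← integral_add (integrable_finsetSum _ fun i _ => hBA i)
      (integrable_finsetSum _ fun i _ => hC i)]
  refine integral_congr_ae (sg_ae_norm.mono fun w hw => ?_)
  simp only [h2 _ w hw]
  have h5 : D w (D w g) (x + r • w) = ∑ i, w i • D w (D (e3 i) g) (x + r • w) := by
    simp only [D_D_eq (hg w hw)]
    conv_lhs => enter [2]; rw [← sum_e3 w]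
    simp only [map_sum, map_smul]
  rw [h5, D_eq_sum w g, ← Finset.sum_add_distrib, Finset.smul_sum, Finset.smul_sum,
    ← Finset.sum_add_distrib]
  refine Finset.sum_congr rfl fun i _ => ?_
  simp only [D, map_sub, map_smul]
  module

end Crest.Agent.R106.Wave
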